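import Vale.Agent.P190.Main

namespace Vale.Agent.Results.P190.RankUnbounded

open _root_.P190 IsLocalRing

universe v

/-- For every prime `p`, every dimension `d ≥ 3` and every power `q = p ^ s` there is a complete
Noetherian local normal domain of characteristic `p` and dimension `d` having a small
Cohen-Macaulay module of rank `q`, all of whose small Cohen-Macaulay modules have rank divisible
by `q`, hence at least `q`. -/
theorem result (p : ℕ) (hp : p.Prime) (d : ℕ) (hd : 3 ≤ d) (s : ℕ) :
    ∃ (R : Type) (_ : CommRing R) (_ : IsDomain R) (_ : IsNoetherianRing R) (_ : IsLocalRing R),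
      IsAdicComplete (maximalIdeal R) R ∧ IsIntegrallyClosed R ∧ CharP R p ∧
      ringKrullDim R = d ∧
      (∃ (M : Type) (_ : AddCommGroup M) (_ : Module R M),
        IsSmallCM R M ∧ Module.finrank R M = p ^ s) ∧
      ∀ (M : Type v) (_ : AddCommGroup M) (_ : Module R M), IsSmallCM R M →
        p ^ s ∣ Module.finrank R M ∧ p ^ s ≤ Module.finrank R M := by
  have : Fact p.Prime := ⟨hp⟩
  refine ⟨RAlg p s d ⟨0, by omega⟩, inferInstance, inferInstance, inferInstance, inferInstance,
    inferInstance, normal_R _, char_R _, dim_R _,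
    ⟨BigP p d, inferInstance, inferInstance, smallCM_P _, (finrank_R_eq _ (by omega)).2⟩, ?_⟩
  intro M _ _ hM
  obtain ⟨h1, h2⟩ := dvd_rank (p := p) (s := s) hd _ rfl hM
  exact ⟨h1, Nat.le_of_dvd h2 h1⟩

end Vale.Agent.Results.P190.RankUnbounded
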